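import Vale.Agent.Lib.P037_helper12.Rect
open Finset

/-!
P037 (helper12): blow-ups of patterns along monotone surjections.
-/

namespace Vale.Agent.Lib.P037

lemma up_dn_of_ne {m : ℕ} (i0 : Fin m) (i : Fin (m + 1)) (h : i.val ≠ i0.val + 1) :
    up i0 (dn i0 i) = i := by
  apply Fin.ext
  simp only [dn, up]
  split_ifs <;> omega

lemma mono_surj_eq_id {a : ℕ} (f : Fin a → Fin a) (hm : Monotone f) (hs : Function.Surjective f) :
    f = id := by
  have hinj : Function.Injective f := Finite.injective_iff_surjective.mpr hs
  have hsm : StrictMono f := hm.strictMono_of_injective hinj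
  funext i
  apply le_antisymm
  · exact hsm.apply_le
  · exact hsm.le_apply

theorem polyRemovalR_blowRows {a b : ℕ} (H : Fin a → Fin b → Bool) (h : PolyRemovalR H) :
    ∀ (a' : ℕ) (f : Fin a' → Fin a), Monotone f → Function.Surjective f →
      PolyRemovalR (fun i j => H (f i) j) := by
  intro a'
  induction a' with
  | zero =>
    intro f hm hs
    have ha : a = 0 := by
      by_contra hne
      obtain ⟨x, _⟩ := hs ⟨0, Nat.pos_of_ne_zero hne⟩
      exact x.elim0
    subst ha
    have : (fun (i : Fin 0) j => H (f i) j) = H := by
      funext i; exact i.elim0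
    rw [this]; exact h
  | succ m ih =>
    intro f hm hs
    by_cases hinj : Function.Injective f
    · have hcard : m + 1 = a := by
        have := Fintype.card_of_bijective ⟨hinj, hs⟩
        simpa using this
      subst hcard
      rw [mono_surj_eq_id f hm hs]
      exact h
    · -- two adjacent equal values
      have hex : ∃ x y : Fin (m + 1), x < y ∧ f x = f y := by
        unfold Function.Injective at hinj
        push Not at hinj
        obtain ⟨x, y, hxy, hne⟩ := hinj
        rcases lt_or_gt_of_ne hne with hlt | hlt
        · exact ⟨x, y, hlt, hxy⟩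
        · exact ⟨y, x, hlt, hxy.symm⟩
      obtain ⟨x, y, hlt, hxy⟩ := hex
      have hxv : x.val < y.val := hlt
      have hym : y.val < m + 1 := y.2
      have hxm : x.val < m := by omega
      obtain ⟨m', rfl⟩ : ∃ m', m = m' + 1 := ⟨m - 1, by omega⟩
      let i0 : Fin (m' + 1) := ⟨x.val, hxm⟩
      let x1 : Fin (m' + 1 + 1) := ⟨x.val + 1, by omega⟩
      have hx1 : f x1 = f x := by
        apply le_antisymm
        · rw [hxy]
          apply hm
          show x.val + 1 ≤ y.val
          omega
        · apply hm
          show x.val ≤ x.val + 1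
          omega
      have hfac : ∀ i, f (up i0 (dn i0 i)) = f i := by
        intro i
        by_cases hi : i.val = i0.val + 1
        · have e1 : i = x1 := Fin.ext hi
          have e2 : up i0 (dn i0 i) = x := by
            apply Fin.ext
            simp only [dn, up]
            have : i0.val = x.val := rfl
            split_ifs <;> omega
          rw [e2, e1, hx1]
        · rw [up_dn_of_ne i0 i hi]
      have hm' : Monotone (f ∘ up i0) := hm.comp (up_strictMono i0).monotone
      have hs' : Function.Surjective (f ∘ up i0) := by
        intro t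
        obtain ⟨j, hj⟩ := hs t
        exact ⟨dn i0 j, by rw [Function.comp_apply, hfac, hj]⟩
      have h1 := polyRemovalR_dupRow i0 _ (ih (f ∘ up i0) hm' hs')
      have e : dupRow i0 (fun i j => H ((f ∘ up i0) i) j) = fun i j => H (f i) j := by
        funext i j
        simp only [dupRow, Function.comp_apply, hfac]
      rw [e] at h1
      exact h1

theorem polyRemovalR_blowCols {a b : ℕ} (H : Fin a → Fin b → Bool) (h : PolyRemovalR H)
    (b' : ℕ) (g : Fin b' → Fin b) (hm : Monotone g) (hs : Function.Surjective g) :
    PolyRemovalR (fun i j => H i (g j)) :=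
  polyRemovalR_tr _ (polyRemovalR_blowRows (tr H) (polyRemovalR_tr H h) b' g hm hs)

/-- **Blow-up lemma.**  Repeating rows and columns of the pattern preserves polynomial removal. -/
theorem polyRemovalR_blow {a b : ℕ} (H : Fin a → Fin b → Bool) (h : PolyRemovalR H)
    (a' b' : ℕ) (f : Fin a' → Fin a) (g : Fin b' → Fin b) (hf : Monotone f)
    (hfs : Function.Surjective f) (hg : Monotone g) (hgs : Function.Surjective g) :
    PolyRemovalR (fun i j => H (f i) (g j)) :=
  polyRemovalR_blowCols _ (polyRemovalR_blowRows H h a' f hf hfs) b' g hg hgs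

/-- every `k × k` pattern with a `2 × 2` block structure has the polynomial removal property -/
theorem polyRemoval_block2 (k : ℕ) (H : Fin k → Fin k → Bool) (H0 : Fin 2 → Fin 2 → Bool)
    (f g : Fin k → Fin 2) (hf : Monotone f) (hfs : Function.Surjective f) (hg : Monotone g)
    (hgs : Function.Surjective g) (hH : ∀ i j, H i j = H0 (f i) (g j)) : PolyRemoval H := by
  rw [← polyRemovalR_iff]
  have h0 : PolyRemovalR H0 := (polyRemovalR_iff H0).mpr (polyRemoval_all2 H0)
  have := polyRemovalR_blow H0 h0 k k f g hf hfs hg hgs
  have e : H = fun i j => H0 (f i) (g j) := by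
    funext i j; exact hH i j
  rw [e]; exact this

end Vale.Agent.Lib.P037
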