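import Vale.Agent.Lib.P037.All2
open Finset

/-!
P037 (helper12): rectangular patterns and the blow-up lemma
(duplicating a row or a column of the pattern preserves polynomial removal).
-/

namespace Vale.Agent.Lib.P037

open Classical in
/-- ordered copies of the `a × b` pattern `H` in the `n × n` matrix `A` -/
noncomputable def copiesR {a b n : ℕ} (H : Fin a → Fin b → Bool) (A : Fin n → Fin n → Bool) :
    Finset ((Fin a → Fin n) × (Fin b → Fin n)) :=
  Finset.univ.filter
    (fun p => StrictMono p.1 ∧ StrictMono p.2 ∧ ∀ i j, A (p.1 i) (p.2 j) = H i j)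

def IsFreeR {a b n : ℕ} (H : Fin a → Fin b → Bool) (A : Fin n → Fin n → Bool) : Prop :=
  copiesR H A = ∅

def IsFarR {a b n : ℕ} (H : Fin a → Fin b → Bool) (A : Fin n → Fin n → Bool) (ε : ℝ) : Prop :=
  ∀ B : Fin n → Fin n → Bool, IsFreeR H B → ε * (n : ℝ) ^ 2 ≤ (diffCount A B : ℝ)

/-- polynomial removal for a rectangular pattern -/
def PolyRemovalR {a b : ℕ} (H : Fin a → Fin b → Bool) : Prop :=
  ∃ c C : ℝ, 0 < c ∧ 0 < C ∧ ∀ (n : ℕ), 1 ≤ n → ∀ (ε : ℝ), 0 < ε → ε < 1 →
    ∀ A : Fin n → Fin n → Bool, IsFarR H A ε →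
      c * ε ^ C * (n : ℝ) ^ (a + b) ≤ ((copiesR H A).card : ℝ)

lemma mem_copiesR {a b n : ℕ} (H : Fin a → Fin b → Bool) (A : Fin n → Fin n → Bool)
    (p : (Fin a → Fin n) × (Fin b → Fin n)) :
    p ∈ copiesR H A ↔ StrictMono p.1 ∧ StrictMono p.2 ∧ ∀ i j, A (p.1 i) (p.2 j) = H i j := by
  classical
  unfold copiesR
  simp only [mem_filter, mem_univ, true_and]

lemma polyRemovalR_iff {k : ℕ} (H : Fin k → Fin k → Bool) : PolyRemovalR H ↔ PolyRemoval H := by
  unfold PolyRemovalR PolyRemoval IsFarR IsFar IsFreeR IsFree copiesR copies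
  simp only [two_mul]

lemma card_copiesR_tr {a b n : ℕ} (H : Fin a → Fin b → Bool) (A : Fin n → Fin n → Bool) :
    (copiesR (tr H) (tr A)).card = (copiesR H A).card := by
  apply Finset.card_bij (fun p _ => (p.2, p.1))
  · intro p hp
    rw [mem_copiesR] at hp ⊢
    exact ⟨hp.2.1, hp.1, fun i j => hp.2.2 j i⟩
  · intro p _ q _ hpq
    simp only [Prod.mk.injEq] at hpq
    exact Prod.ext hpq.2 hpq.1
  · intro p hp
    refine ⟨(p.2, p.1), ?_, rfl⟩
    rw [mem_copiesR] at hp ⊢
    exact ⟨hp.2.1, hp.1, fun i j => hp.2.2 j i⟩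

lemma polyRemovalR_tr {a b : ℕ} (H : Fin a → Fin b → Bool) (h : PolyRemovalR H) :
    PolyRemovalR (tr H) := by
  obtain ⟨c, C, hc, hC, hmain⟩ := h
  refine ⟨c, C, hc, hC, ?_⟩
  intro n hn ε h0 h1 A hfar
  have := hmain n hn ε h0 h1 (tr A) (by
    intro B hB
    have hB' : IsFreeR (tr H) (tr B) := by
      unfold IsFreeR at hB ⊢
      apply Finset.card_eq_zero.mp
      rw [card_copiesR_tr, hB]; rfl
    have := hfar (tr B) hB'
    rw [← diffCount_tr] at this
    exact this)
  rw [← card_copiesR_tr] at this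
  rw [add_comm b a]
  exact this

/-- collapse the indices `i0`, `i0 + 1` -/
def dn {a : ℕ} (i0 : Fin a) (i : Fin (a + 1)) : Fin a :=
  ⟨if i.val ≤ i0.val then i.val else i.val - 1, by
    have := i.2; have := i0.2; split_ifs <;> omega⟩

/-- skip the index `i0 + 1` -/
def up {a : ℕ} (i0 : Fin a) (i : Fin a) : Fin (a + 1) :=
  ⟨if i.val ≤ i0.val then i.val else i.val + 1, by
    have := i.2; split_ifs <;> omega⟩

lemma dn_up {a : ℕ} (i0 i : Fin a) : dn i0 (up i0 i) = i := by
  apply Fin.ext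
  simp only [dn, up]
  split_ifs <;> omega

lemma up_strictMono {a : ℕ} (i0 : Fin a) : StrictMono (up i0) := by
  intro i j hij
  have h : i.val < j.val := hij
  show (up i0 i).val < (up i0 j).val
  simp only [up]
  split_ifs <;> omega

/-- duplicate the row `i0` of the pattern -/
def dupRow {a b : ℕ} (i0 : Fin a) (H : Fin a → Fin b → Bool) : Fin (a + 1) → Fin b → Bool :=
  fun i j => H (dn i0 i) j

lemma isFreeR_dupRow {a b n : ℕ} (i0 : Fin a) (H : Fin a → Fin b → Bool)
    (B : Fin n → Fin n → Bool) (h : IsFreeR H B) : IsFreeR (dupRow i0 H) B := by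
  unfold IsFreeR at h ⊢
  rw [Finset.eq_empty_iff_forall_notMem] at h ⊢
  intro p hp
  rw [mem_copiesR] at hp
  apply h (p.1 ∘ up i0, p.2)
  rw [mem_copiesR]
  refine ⟨hp.1.comp (up_strictMono i0), hp.2.1, ?_⟩
  intro i j
  have := hp.2.2 (up i0 i) j
  simp only [dupRow, dn_up] at this
  exact this

section Count
variable {a b n : ℕ}

open Classical in
/-- the rows completing `u` to a copy -/
noncomputable def fibR (i0 : Fin (a + 1)) (H : Fin (a + 1) → Fin b → Bool) (A : Fin n → Fin n → Bool)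
    (u : (Fin a → Fin n) × (Fin b → Fin n)) : Finset (Fin n) :=
  univ.filter (fun r => ((Fin.insertNth i0 r u.1 : Fin (a + 1) → Fin n), u.2) ∈ copiesR H A)

lemma mem_fibR (i0 : Fin (a + 1)) (H : Fin (a + 1) → Fin b → Bool) (A : Fin n → Fin n → Bool)
    (u : (Fin a → Fin n) × (Fin b → Fin n)) (r : Fin n) :
    r ∈ fibR i0 H A u ↔ ((Fin.insertNth i0 r u.1 : Fin (a + 1) → Fin n), u.2) ∈ copiesR H A := by
  classical
  unfold fibR
  simp only [mem_filter, mem_univ, true_and]

lemma card_copiesR_eq_sum (i0 : Fin (a + 1)) (H : Fin (a + 1) → Fin b → Bool)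
    (A : Fin n → Fin n → Bool) :
    (copiesR H A).card = ∑ u : (Fin a → Fin n) × (Fin b → Fin n), (fibR i0 H A u).card := by
  classical
  rw [← Finset.card_sigma]
  apply Finset.card_bij
    (fun x _ => (⟨(Fin.removeNth i0 x.1, x.2), x.1 i0⟩ :
      (_ : (Fin a → Fin n) × (Fin b → Fin n)) × Fin n))
  · intro x hx
    rw [Finset.mem_sigma]
    refine ⟨mem_univ _, ?_⟩
    rw [mem_fibR]
    simp only [Fin.insertNth_self_removeNth]
    exact hx
  · intro x _ y _ hxy
    simp only [Sigma.mk.injEq, heq_eq_eq, Prod.mk.injEq] at hxy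
    obtain ⟨⟨h1, h2⟩, h3⟩ := hxy
    apply Prod.ext _ h2
    rw [← Fin.insertNth_self_removeNth i0 x.1, ← Fin.insertNth_self_removeNth i0 y.1, h1, h3]
  · intro z hz
    rw [Finset.mem_sigma, mem_fibR] at hz
    refine ⟨((Fin.insertNth i0 z.2 z.1.1 : Fin (a + 1) → Fin n), z.1.2), hz.2, ?_⟩
    simp only [Fin.insertNth_apply_same, Fin.removeNth_insertNth]

/-- the row selection of the copy of the duplicated pattern -/
def mkDup (i0 : Fin (a + 1)) (f : Fin a → Fin n) (p1 p2 : Fin n) : Fin (a + 2) → Fin n :=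
  fun i => if i.val ≤ i0.val then (Fin.insertNth i0 p1 f : Fin (a + 1) → Fin n) (dn i0 i)
    else (Fin.insertNth i0 p2 f : Fin (a + 1) → Fin n) (dn i0 i)

lemma insertNth_ne (i0 : Fin (a + 1)) (f : Fin a → Fin n) (p1 p2 : Fin n) (w : Fin (a + 1))
    (hw : w ≠ i0) :
    (Fin.insertNth i0 p1 f : Fin (a + 1) → Fin n) w = (Fin.insertNth i0 p2 f : Fin (a + 1) → Fin n) w := by
  obtain ⟨z, rfl⟩ := Fin.exists_succAbove_eq hw
  simp only [Fin.insertNth_apply_succAbove]

lemma mkDup_strictMono (i0 : Fin (a + 1)) (f : Fin a → Fin n) (p1 p2 : Fin n) (h12 : p1 < p2)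
    (h1 : StrictMono (Fin.insertNth i0 p1 f : Fin (a + 1) → Fin n))
    (h2 : StrictMono (Fin.insertNth i0 p2 f : Fin (a + 1) → Fin n)) :
    StrictMono (mkDup i0 f p1 p2) := by
  intro i j hij
  have hv : i.val < j.val := hij
  unfold mkDup
  by_cases hj : j.val ≤ i0.val
  · have hi : i.val ≤ i0.val := by omega
    rw [if_pos hi, if_pos hj]
    apply h1
    show (dn i0 i).val < (dn i0 j).val
    simp only [dn, if_pos hi, if_pos hj]
    exact hv
  · by_cases hi : i.val ≤ i0.val
    · rw [if_pos hi, if_neg hj]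
      by_cases hj2 : j.val = i0.val + 1
      · have e : dn i0 j = i0 := by
          apply Fin.ext
          simp only [dn, if_neg hj]
          omega
        rw [e, Fin.insertNth_apply_same]
        refine lt_of_le_of_lt ?_ h12
        have h3 : (Fin.insertNth i0 p1 f : Fin (a + 1) → Fin n) (dn i0 i)
            ≤ (Fin.insertNth i0 p1 f : Fin (a + 1) → Fin n) i0 := by
          apply h1.monotone
          show (dn i0 i).val ≤ i0.val
          simp only [dn, if_pos hi]
          exact hi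
        rwa [Fin.insertNth_apply_same] at h3
      · have hne : dn i0 j ≠ i0 := by
          intro e
          have := congrArg Fin.val e
          simp only [dn, if_neg hj] at this
          omega
        rw [← insertNth_ne i0 f p1 p2 _ hne]
        apply h1
        show (dn i0 i).val < (dn i0 j).val
        simp only [dn, if_pos hi, if_neg hj]
        omega
    · rw [if_neg hi, if_neg hj]
      apply h2
      show (dn i0 i).val < (dn i0 j).val
      simp only [dn, if_neg hi, if_neg hj]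
      omega

lemma sum_pairs_le (i0 : Fin (a + 1)) (H : Fin (a + 1) → Fin b → Bool)
    (A : Fin n → Fin n → Bool) :
    ∑ u : (Fin a → Fin n) × (Fin b → Fin n),
      ((fibR i0 H A u ×ˢ fibR i0 H A u).filter (fun p => p.1 < p.2)).card
      ≤ (copiesR (dupRow i0 H) A).card := by
  classical
  rw [← Finset.card_sigma]
  apply Finset.card_le_card_of_injOn
    (fun z => (mkDup i0 z.1.1 z.2.1 z.2.2, z.1.2))
  · intro z hz
    have hz' := Finset.mem_sigma.mp (Finset.mem_coe.mp hz)
    obtain ⟨hzz, h12⟩ := Finset.mem_filter.mp hz'.2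
    obtain ⟨hp1, hp2⟩ := Finset.mem_product.mp hzz
    rw [mem_fibR, mem_copiesR] at hp1 hp2
    apply Finset.mem_coe.mpr
    rw [mem_copiesR]
    refine ⟨mkDup_strictMono i0 _ _ _ h12 hp1.1 hp2.1, hp1.2.1, ?_⟩
    intro i j
    simp only [mkDup, dupRow]
    split_ifs
    · exact hp1.2.2 _ j
    · exact hp2.2.2 _ j
  · intro z _ z' _ hzz
    simp only [Prod.mk.injEq] at hzz
    obtain ⟨h1, h2⟩ := hzz
    have hA : z.2.1 = z'.2.1 := by
      have := congrFun h1 ⟨i0.val, by have := i0.2; omega⟩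
      have e : dn i0 (⟨i0.val, by have := i0.2; omega⟩ : Fin (a + 2)) = i0 := by
        apply Fin.ext; simp [dn]
      simp only [mkDup, le_refl, if_true, e, Fin.insertNth_apply_same] at this
      exact this
    have hB : z.2.2 = z'.2.2 := by
      have := congrFun h1 ⟨i0.val + 1, by have := i0.2; omega⟩
      have e : dn i0 (⟨i0.val + 1, by have := i0.2; omega⟩ : Fin (a + 2)) = i0 := by
        apply Fin.ext; simp [dn]
      have hn : ¬ (i0.val + 1 ≤ i0.val) := by omega
      simp only [mkDup, hn, if_false, e, Fin.insertNth_apply_same] at this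
      exact this
    have hC : z.1.1 = z'.1.1 := by
      funext w
      have := congrFun h1 (up i0 (i0.succAbove w))
      simp only [mkDup, dn_up, Fin.insertNth_apply_succAbove, ite_self] at this
      exact this
    obtain ⟨⟨f, κ⟩, ⟨p1, p2⟩⟩ := z
    obtain ⟨⟨f', κ'⟩, ⟨p1', p2'⟩⟩ := z'
    simp only at h2 hA hB hC
    subst h2 hA hB hC
    rfl

lemma card_sq_le (i0 : Fin (a + 1)) (H : Fin (a + 1) → Fin b → Bool)
    (A : Fin n → Fin n → Bool) :
    (copiesR H A).card ^ 2 ≤ n ^ (a + b) * ((copiesR H A).card + 2 * (copiesR (dupRow i0 H) A).card) := by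
  have h := sq_sum_le_pairs (univ : Finset ((Fin a → Fin n) × (Fin b → Fin n))) (fibR i0 H A)
  rw [← card_copiesR_eq_sum i0 H A] at h
  have hU : (univ : Finset ((Fin a → Fin n) × (Fin b → Fin n))).card = n ^ (a + b) := by
    rw [Finset.card_univ, Fintype.card_prod]
    simp [pow_add]
  rw [hU] at h
  refine h.trans ?_
  apply Nat.mul_le_mul_left
  have := sum_pairs_le i0 H A
  omega

end Count

theorem polyRemovalR_dupRow {a b : ℕ} (i0 : Fin (a + 1)) (H : Fin (a + 1) → Fin b → Bool)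
    (h : PolyRemovalR H) : PolyRemovalR (dupRow i0 H) := by
  obtain ⟨c, C, hc, hC, hmain⟩ := h
  obtain ⟨D, hD⟩ : ∃ D, D = a + 1 + b := ⟨_, rfl⟩
  refine ⟨min (c ^ 2 / 4) ((c / 2) ^ (D + 1)), C * ((D + 1 : ℕ) : ℝ), by positivity, by positivity, ?_⟩
  intro n hn ε h0 h1 A hfar
  have hnR : (0 : ℝ) < n := by exact_mod_cast hn
  -- the duplicated pattern occurs
  have hN1 : 1 ≤ (copiesR (dupRow i0 H) A).card := by
    by_contra hcon
    have hz : (copiesR (dupRow i0 H) A).card = 0 := by omega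
    have hfree : IsFreeR (dupRow i0 H) A := Finset.card_eq_zero.mp hz
    have h2 := hfar A hfree
    have hd : diffCount A A = 0 := by simp [diffCount]
    rw [hd] at h2
    have h3 : 0 < ε * (n : ℝ) ^ 2 := by positivity
    simp at h2
    linarith
  have hfar' : IsFarR H A ε := fun B hB => hfar B (isFreeR_dupRow i0 H B hB)
  have hN := hmain n hn ε h0 h1 A hfar'
  have hsq := card_sq_le i0 H A
  obtain ⟨N, hNdef⟩ : ∃ N : ℝ, N = ((copiesR H A).card : ℝ) := ⟨_, rfl⟩
  obtain ⟨P, hPdef⟩ : ∃ P : ℝ, P = ((copiesR (dupRow i0 H) A).card : ℝ) := ⟨_, rfl⟩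
  have hsqR : N ^ 2 ≤ (n : ℝ) ^ (a + b) * (N + 2 * P) := by
    rw [hNdef, hPdef]; exact_mod_cast hsq
  have hP1 : 1 ≤ P := by rw [hPdef]; exact_mod_cast hN1
  rw [← hNdef] at hN
  rw [← hPdef]
  obtain ⟨e, he⟩ : ∃ e : ℝ, e = ε ^ C := ⟨_, rfl⟩
  have he0 : 0 < e := by rw [he]; exact Real.rpow_pos_of_pos h0 C
  have he1 : e ≤ 1 := by rw [he]; exact Real.rpow_le_one h0.le h1.le hC.le
  have hpow : ε ^ (C * ((D + 1 : ℕ) : ℝ)) = e ^ (D + 1) := by
    rw [Real.rpow_mul h0.le, Real.rpow_natCast, he]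
  rw [hpow]
  rw [← he] at hN
  have hexp : a + 1 + 1 + b = D + 1 := by omega
  rw [hexp]
  rw [← hD] at hN
  obtain ⟨x, hx⟩ : ∃ x : ℝ, x = c * e := ⟨_, rfl⟩
  have hx0 : 0 < x := by rw [hx]; positivity
  rw [← hx] at hN
  have hnD : (n : ℝ) ^ D = (n : ℝ) * (n : ℝ) ^ (a + b) := by
    rw [hD]; ring
  have hq0 : (0 : ℝ) < (n : ℝ) ^ (a + b) := by positivity
  by_cases hcase : 2 ≤ x * n
  · -- large n
    have hN0 : 0 < N := lt_of_lt_of_le (by positivity) hN
    have h3 : N * (x * n) ≤ N + 2 * P := by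
      have h4 : N * (x * (n : ℝ) ^ D) ≤ N ^ 2 := by
        rw [sq]; exact mul_le_mul_of_nonneg_left hN hN0.le
      have h5 : (n : ℝ) ^ (a + b) * (N * (x * n)) ≤ (n : ℝ) ^ (a + b) * (N + 2 * P) := by
        calc (n : ℝ) ^ (a + b) * (N * (x * n)) = N * (x * (n : ℝ) ^ D) := by rw [hnD]; ring
          _ ≤ N ^ 2 := h4
          _ ≤ _ := hsqR
      exact le_of_mul_le_mul_left h5 hq0
    have h6 : N * (x * n) / 4 ≤ P := by nlinarith
    have h7 : x ^ 2 / 4 * (n : ℝ) ^ (D + 1) ≤ N * (x * n) / 4 := by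
      have : x * (n : ℝ) ^ D * (x * n) ≤ N * (x * n) :=
        mul_le_mul_of_nonneg_right hN (by positivity)
      calc x ^ 2 / 4 * (n : ℝ) ^ (D + 1) = x * (n : ℝ) ^ D * (x * n) / 4 := by ring
        _ ≤ _ := by linarith
    refine le_trans ?_ (h7.trans h6)
    apply mul_le_mul_of_nonneg_right _ (by positivity)
    have h8 : e ^ (D + 1) ≤ e ^ 2 := pow_le_pow_of_le_one he0.le he1 (by omega)
    calc min (c ^ 2 / 4) ((c / 2) ^ (D + 1)) * e ^ (D + 1) ≤ c ^ 2 / 4 * e ^ 2 :=
          mul_le_mul (min_le_left _ _) h8 (by positivity) (by positivity)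
      _ = x ^ 2 / 4 := by rw [hx]; ring
  · -- small n
    have hlt : x * n / 2 < 1 := by
      have := not_le.mp hcase
      linarith
    refine le_trans ?_ hP1
    calc min (c ^ 2 / 4) ((c / 2) ^ (D + 1)) * e ^ (D + 1) * (n : ℝ) ^ (D + 1)
        ≤ (c / 2) ^ (D + 1) * e ^ (D + 1) * (n : ℝ) ^ (D + 1) := by
          apply mul_le_mul_of_nonneg_right _ (by positivity)
          exact mul_le_mul_of_nonneg_right (min_le_right _ _) (by positivity)
      _ = (x * n / 2) ^ (D + 1) := by rw [hx]; ring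
      _ ≤ 1 := pow_le_one₀ (by positivity) hlt.le

/-- duplicate the column `j0` of the pattern -/
def dupCol {a b : ℕ} (j0 : Fin b) (H : Fin a → Fin b → Bool) : Fin a → Fin (b + 1) → Bool :=
  fun i j => H i (dn j0 j)

theorem polyRemovalR_dupCol {a b : ℕ} (j0 : Fin (b + 1)) (H : Fin a → Fin (b + 1) → Bool)
    (h : PolyRemovalR H) : PolyRemovalR (dupCol j0 H) := by
  have h1 := polyRemovalR_tr _ (polyRemovalR_dupRow j0 (tr H) (polyRemovalR_tr H h))
  exact h1

end Vale.Agent.Lib.P037
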